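import Crest.Agent.R172.Cry
import Crest.Agent.R172.W.Main

/-! R172/C/L1 (owner helper92): the Littlewood–Richardson rule for an abstract crystal -/

set_option autoImplicit false
set_option linter.unusedVariables false
set_option linter.unusedSectionVars false
open Matrix Crest.AlgebraR.SpinSaturation

noncomputable section
namespace Crest.Agent.R172
open W

variable {m : ℕ}

/-- the simple root attached to a node -/
def st (m : ℕ) (i : Fin (m + 1)) : Rt (m + 1) :=
  if h : (i : ℕ) < m then (i, ⟨i + 1, by omega⟩, 1) else (⟨m - 1, by omega⟩, Fin.last m, -1)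

theorem st_simple (hm : 1 ≤ m) (i : Fin (m + 1)) : IsSimple (st m i) := by
  unfold st IsSimple
  split_ifs with h
  · exact ⟨rfl, Or.inl rfl⟩
  · exact ⟨by simp; omega, Or.inr (by simp)⟩

theorem st_ne (hm : 1 ≤ m) (i : Fin (m + 1)) : (st m i).1 ≠ (st m i).2.1 := fun h => by
  have := (st_simple hm i).1
  rw [← h] at this
  omega

theorem exists_st {t : Rt (m + 1)} (ht : IsSimple t) : ∃ i, t = st m i := by
  obtain ⟨i, j, η⟩ := t
  obtain ⟨h1, h2⟩ := ht
  simp only at h1 h2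
  have hj := j.2
  rcases Int.units_eq_one_or η with rfl | rfl
  · refine ⟨i, ?_⟩
    rw [st, dif_pos (by omega)]
    exact Prod.ext rfl (Prod.ext (Fin.ext h1) rfl)
  · have h3 : (j : ℕ) + 1 = m + 1 := h2.resolve_left (by decide)
    refine ⟨Fin.last m, ?_⟩
    rw [st, dif_neg (by simp)]
    exact Prod.ext (Fin.ext (by simp; omega)) (Prod.ext (Fin.ext (by simp; omega)) rfl)

theorem bt_st (i : Fin (m + 1)) (a : Wt (m + 1)) : bt (st m i) ⬝ᵥ a = pr m i a := by
  rw [bt_dot]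
  unfold st pr
  split_ifs with h <;> simp

theorem rt_eq (hm : 1 ≤ m) (i : Fin (m + 1)) : rt m i = (2 : ℤ) • bt (st m i) := by
  funext j
  unfold rt st bt
  by_cases h : (i : ℕ) < m
  · simp only [h, if_true, dif_pos, Pi.smul_apply, Pi.sub_apply, Pi.single_apply, Fin.ext_iff, smul_eq_mul, Units.val_one]
    split_ifs <;> omega
  · simp only [h, if_false, dif_neg, not_false_iff, Pi.smul_apply, Pi.sub_apply, Pi.single_apply, Fin.ext_iff, smul_eq_mul, Fin.val_last,
      Units.val_neg, Units.val_one]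
    split_ifs <;> omega

theorem pr_add (i : Fin (m + 1)) (a b : Wt (m + 1)) : pr m i (a + b) = pr m i a + pr m i b := by
  rw [← bt_st, ← bt_st, ← bt_st, dotProduct_add]

theorem pr_rt (hm : 1 ≤ m) (i : Fin (m + 1)) : pr m i (rt m i) = 4 := by
  rw [← bt_st, rt_eq hm, dotProduct_smul, bt_dot_self (st_ne hm i)]
  rfl

namespace Cry
variable {mu : Fin (m + 1) → ℤ} {B : Type} (K : Cry m mu B)

theorem f_phi (hm : 1 ≤ m) (i : Fin (m + 1)) (b : B) (h : 0 < K.phi i b) : K.phi i (K.f i b) + 1 = K.phi i b := by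
  have h1 := K.pair i (K.f i b)
  have h2 := K.pair i b
  have h3 := pr_add i (K.wt b - rt m i) (rt m i)
  rw [K.f_wt i b h, K.f_eps i b h] at h1
  rw [sub_add_cancel, pr_rt hm] at h3
  push_cast at h1
  omega

theorem f_iter (hm : 1 ≤ m) (i : Fin (m + 1)) (c : B) : ∀ k, k ≤ K.phi i c → K.eps i ((K.f i)^[k] c) = K.eps i c + k ∧
    K.phi i ((K.f i)^[k] c) + k = K.phi i c ∧ K.wt ((K.f i)^[k] c) = K.wt c - (k : ℤ) • rt m i ∧ (K.e i)^[k] ((K.f i)^[k] c) = c := by
  intro k
  induction k with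
  | zero => simp
  | succ k ih =>
    intro hk
    obtain ⟨h1, h2, h3, h4⟩ := ih (by omega)
    have h0 : 0 < K.phi i ((K.f i)^[k] c) := by omega
    have h5 := K.f_phi hm i _ h0
    rw [Function.iterate_succ_apply' (K.f i), K.f_eps i _ h0, K.f_wt i _ h0, Function.iterate_succ_apply, K.e_f i _ h0, h3]
    refine ⟨by omega, by omega, ?_, h4⟩
    push_cast
    rw [add_smul, one_smul, sub_sub]

/-- every element lies on the string of an element with `eps = 0` -/
theorem exists_head (hm : 1 ≤ m) (i : Fin (m + 1)) : ∀ (k : ℕ) (b : B), K.eps i b = k →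
    ∃ c, K.eps i c = 0 ∧ k ≤ K.phi i c ∧ b = (K.f i)^[k] c := by
  intro k
  induction k with
  | zero => exact fun b hb => ⟨b, hb, Nat.zero_le _, rfl⟩
  | succ k ih =>
    intro b hb
    obtain ⟨h1, h2⟩ := K.f_e i b (by omega)
    have h3 := K.f_eps i _ h1
    rw [h2] at h3
    obtain ⟨c, hc0, hc1, hc2⟩ := ih (K.e i b) (by omega)
    have h4 := (K.f_iter hm i c k hc1).2.1
    rw [← hc2] at h4
    exact ⟨c, hc0, by omega, by rw [Function.iterate_succ_apply', ← hc2, h2]⟩

/-- the reflection of the part `s ≤ eps` of a string -/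
def rfl' (i : Fin (m + 1)) (s : ℕ) (b : B) : B := (K.f i)^[K.phi i b + s] ((K.e i)^[K.eps i b] b)

theorem rfl'_spec (hm : 1 ≤ m) (i : Fin (m + 1)) (s : ℕ) (b : B) (hs : s ≤ K.eps i b) :
    s ≤ K.eps i (K.rfl' i s b) ∧ K.rfl' i s (K.rfl' i s b) = b ∧
      K.wt (K.rfl' i s b) = K.wt b - ((K.phi i b : ℤ) - K.eps i b + s) • rt m i ∧
      ∃ c k k', s ≤ k ∧ s ≤ k' ∧ k ≤ K.phi i c ∧ k' ≤ K.phi i c ∧ K.eps i c = 0 ∧ b = (K.f i)^[k] c ∧ K.rfl' i s b = (K.f i)^[k'] c := by
  obtain ⟨c, hc0, hc1, hc2⟩ := K.exists_head hm i _ b rfl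
  obtain ⟨-, a2, a3, a4⟩ := K.f_iter hm i c _ hc1
  rw [← hc2] at a2 a3 a4
  have e1 : K.rfl' i s b = (K.f i)^[K.phi i b + s] c := by rw [rfl', a4]
  obtain ⟨b1, b2, b3, b4⟩ := K.f_iter hm i c (K.phi i b + s) (by omega)
  rw [← e1] at b1 b2 b3 b4
  rw [hc0, zero_add] at b1
  refine ⟨by omega, ?_, ?_, c, K.eps i b, K.phi i b + s, hs, by omega, hc1, by omega, hc0, hc2, e1⟩
  · rw [rfl', b1, b4, show K.phi i (K.rfl' i s b) + s = K.eps i b by omega, ← hc2]
  · rw [b3, a3]
    push_cast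
    simp only [add_smul, sub_smul]
    abel

theorem act_rfl' (hm : 1 ≤ m) (i : Fin (m + 1)) (s : ℕ) (b : B) (hs : s ≤ K.eps i b) {l : Wt (m + 1)} (hl : pr m i l = 2 * s) :
    act (rf (st m i)) (l + K.wt b) = l + K.wt (K.rfl' i s b) := by
  rw [act_rf (st_ne hm i), bt_st, pr_add, hl, K.pair, (K.rfl'_spec hm i s b hs).2.2.1, rt_eq hm, smul_smul, add_sub_assoc]
  congr 3
  ring

theorem sym [Fintype B] (hm : 1 ≤ m) : Sym (chw K.wt) := by
  refine sym_of_simple fun t ht μ => ?_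
  obtain ⟨i, rfl⟩ := exists_st ht
  have hi : Function.Involutive (K.rfl' i 0) := fun b => (K.rfl'_spec hm i 0 b (Nat.zero_le _)).2.1
  rw [coeff_chw, coeff_chw, ← Equiv.sum_comp hi.toPerm]
  refine Finset.sum_congr rfl fun b _ => ?_
  have h1 := K.act_rfl' hm i 0 b (Nat.zero_le _) (l := 0) (by rw [← bt_st]; simp)
  rw [zero_add, zero_add] at h1
  have h2 : Function.Injective (act (rf (st m i))) := fun x y h => by
    rw [← act_one x, ← act_one y, ← inv_mul_cancel (rf (st m i)), act_mul, act_mul, h]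
  simp only [Function.Involutive.coe_toPerm, ← h1, h2.eq_iff]

theorem A_mul [Fintype B] (hm : 1 ≤ m) {a : Wt (m + 1)} {lam : Fin (m + 1) → ℕ} (hl : ∀ i, pr m i a = 2 * lam i) :
    A (a + rho (m + 1)) * chw K.wt = ∑ b with ∀ i, K.eps i b ≤ lam i, A (a + K.wt b + rho (m + 1)) := by
  obtain ⟨ι, h1, h2⟩ := K.sel lam
  have hl' : ∀ i, pr m i (a + rho (m + 1)) = 2 * (lam i + 1 : ℕ) := fun i => by
    rw [pr_add, hl, ← bt_st, bt_dot_rho (st_simple hm i)]
    push_cast
    ring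
  have hι : ∀ i c, K.eps i c = 0 → ∀ k, lam i + 1 + k ≤ K.phi i c → (ι ((K.f i)^[lam i + 1 + k] c) = i ↔ ι ((K.f i)^[lam i + 1] c) = i) := by
    intro i c hc k
    induction k with
    | zero => exact fun _ => Iff.rfl
    | succ k ih =>
      intro hk
      obtain ⟨a1, a2, -, -⟩ := K.f_iter hm i c (lam i + 1 + k) (by omega)
      rw [← add_assoc, Function.iterate_succ_apply', h2 i _ (by omega) (by omega)]
      exact ih (by omega)
  have hb : ∀ b, (¬∀ i, K.eps i b ≤ lam i) → lam (ι b) + 1 ≤ K.eps (ι b) b := fun b hb => h1 b (by simpa using hb)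
  have hg : ∀ b, (¬∀ i, K.eps i b ≤ lam i) → ι (K.rfl' (ι b) (lam (ι b) + 1) b) = ι b := fun b h => by
    obtain ⟨-, -, -, c, k, k', a1, a2, a3, a4, a5, a6, a7⟩ := K.rfl'_spec hm (ι b) _ b (hb b h)
    obtain ⟨k, rfl⟩ := Nat.exists_eq_add_of_le a1
    obtain ⟨k', rfl⟩ := Nat.exists_eq_add_of_le a2
    rw [a7, hι _ c a5 k' a4, ← hι _ c a5 k a3, ← a6]
  have h0 : ∑ b with ¬∀ i, K.eps i b ≤ lam i, A (a + rho (m + 1) + K.wt b) = 0 := by
    refine Finset.sum_involution (fun b _ => K.rfl' (ι b) (lam (ι b) + 1) b) (fun b h => ?_) (fun b h h' e => h' ?_) (fun b h => ?_)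
      (fun b h => ?_)
    · rw [← K.act_rfl' hm _ _ b (hb b (Finset.mem_filter.1 h).2) (hl' _), A_rf (st_ne hm _), add_neg_cancel]
    · have := A_rf (st_ne hm (ι b)) (a + rho (m + 1) + K.wt b)
      rw [K.act_rfl' hm _ _ b (hb b (Finset.mem_filter.1 h).2) (hl' _), e, eq_neg_iff_add_eq_zero, ← two_smul ℂ] at this
      exact (smul_eq_zero.1 this).resolve_left two_ne_zero
    · refine Finset.mem_filter.2 ⟨Finset.mem_univ _, fun h' => ?_⟩
      have := (K.rfl'_spec hm (ι b) _ b (hb b (Finset.mem_filter.1 h).2)).1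
      have := h' (ι b)
      omega
    · simp only [hg b (Finset.mem_filter.1 h).2]
      exact (K.rfl'_spec hm (ι b) _ b (hb b (Finset.mem_filter.1 h).2)).2.1
  rw [A_mul_chw (K.sym hm), ← Finset.sum_filter_add_sum_filter_not _ fun b => ∀ i, K.eps i b ≤ lam i, h0, add_zero]
  exact Finset.sum_congr rfl fun b _ => by rw [add_right_comm]

end Cry

theorem exists_lam (hm : 1 ≤ m) {a : Wt (m + 1)} (ha : IsDominantIntegral (m + 1) a) :
    ∃ lam : Fin (m + 1) → ℕ, ∀ i, pr m i a = 2 * lam i := by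
  have h : ∀ i, ∃ k : ℕ, pr m i a = 2 * k := fun i => by
    have h0 : 0 ≤ pr m i a := bt_st i a ▸ dom_iff.1 (dom_of_isDominantIntegral ha) _ (st_simple hm i).mem_pr
    have h1 : Even (pr m i a) := by
      unfold pr
      split_ifs with h
      · exact ha.1 _ _
      · obtain ⟨r, hr⟩ := ha.1 ⟨m - 1, by omega⟩ (Fin.last m)
        exact ⟨r + a (Fin.last m), by omega⟩
    obtain ⟨r, hr⟩ := h1
    exact ⟨r.toNat, by omega⟩
  exact ⟨fun i => (h i).choose, fun i => (h i).choose_spec⟩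

theorem s_L1 : S_L1 := by
  intro m hm a b c ha hb hc U V W B K
  have := K.fin
  have := Fintype.ofFinite B
  obtain ⟨lam, hl⟩ := exists_lam hm ha
  obtain ⟨b0, h0, h1⟩ := K.top
  have e0 := K.A_mul hm (a := 0) (lam := 0) fun i => by rw [← bt_st]; simp
  have e1 : (Finset.univ.filter fun x => ∀ i, K.eps i x ≤ (0 : Fin (m + 1) → ℕ) i) = {b0} := by
    ext x
    simp [← h1]
  rw [e1, Finset.sum_singleton, zero_add, zero_add, h0] at e0
  have hc' : Dom (dual c + rho (m + 1)) := ((dom_of_isDominantIntegral hc).dual.add_sdom sdom_rho).dom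
  rw [hasInvariant_iff (dom_of_isDominantIntegral ha) (dom_of_isDominantIntegral hb) (dom_of_isDominantIntegral hc) U V W e0,
    K.A_mul hm hl]
  have e2 : (∑ x with ∀ i, K.eps i x ≤ lam i, A (a + K.wt x + rho (m + 1))).coeff (dual c + rho (m + 1)) =
      ∑ x with ∀ i, K.eps i x ≤ lam i, if a + K.wt x = dual c then (1 : ℂ) else 0 := by
    rw [AddMonoidAlgebra.coeff_sum, Finsupp.finsetSum_apply]
    refine Finset.sum_congr rfl fun x hx => ?_
    have hd : Dom (a + K.wt x) := dom_of_simple fun t ht => by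
      obtain ⟨i, rfl⟩ := exists_st ht
      have := (Finset.mem_filter.1 hx).2 i
      rw [bt_st, pr_add, hl, K.pair]
      omega
    rw [coeff_A_sdom (hd.add_sdom sdom_rho) hc']
    simp only [add_left_inj]
  rw [e2, Finset.sum_boole, Nat.cast_ne_zero, Finset.card_ne_zero]
  constructor
  · rintro ⟨x, hx⟩
    simp only [Finset.mem_filter, Finset.mem_univ, true_and] at hx
    exact ⟨x, fun i => by have := hx.1 i; rw [hl]; omega, hx.2⟩
  · rintro ⟨x, h2, h3⟩
    refine ⟨x, ?_⟩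
    simp only [Finset.mem_filter, Finset.mem_univ, true_and]
    exact ⟨fun i => by have := h2 i; rw [hl] at this; omega, h3⟩

end Crest.Agent.R172
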